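import Vale.Agent.Lib.P154.ST.Tens

/-!
The Lyapunov argument: from a pointwise inequality for the two test functions to nonreconstruction.
-/

namespace Vale.Agent.Lib.P154

namespace ST

open scoped BigOperators
open Filter Topology

/-- The potential. -/
noncomputable def psiF (u0 u1 u2 : ℝ) : ℝ := 81 * (1 - Gq u0 u1 u2) - 63 * (1 - Gp u0 u1 u2)

/-- The auxiliary linear combination. -/
noncomputable def WF (u0 u1 u2 : ℝ) : ℝ := 63 * (1 - Gp u0 u1 u2) - 69 * (1 - Gq u0 u1 u2)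

/-- The triangle of centered messages. -/
def InT (u0 u1 u2 : ℝ) : Prop := u0 + u1 + u2 = 0 ∧ -1 ≤ u0 ∧ -1 ≤ u1 ∧ -1 ≤ u2

section pointwise

lemma mono_pt {a b c : ℝ} (ha : 0 ≤ a) (hb : 0 ≤ b) (hc : 0 ≤ c) :
    6 * (a ^ 3 * b ^ 3 * c ^ 3) ≤ a ^ 5 * b ^ 3 * c ^ 1 + a ^ 5 * c ^ 3 * b ^ 1 + b ^ 5 * a ^ 3 * c ^ 1
      + b ^ 5 * c ^ 3 * a ^ 1 + c ^ 5 * a ^ 3 * b ^ 1 + c ^ 5 * b ^ 3 * a ^ 1 := by
  have e : a ^ 5 * b ^ 3 * c ^ 1 + a ^ 5 * c ^ 3 * b ^ 1 + b ^ 5 * a ^ 3 * c ^ 1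
      + b ^ 5 * c ^ 3 * a ^ 1 + c ^ 5 * a ^ 3 * b ^ 1 + c ^ 5 * b ^ 3 * a ^ 1 - 6 * (a ^ 3 * b ^ 3 * c ^ 3)
      = a * b * c * (a ^ 2 * (b ^ 2 - c ^ 2) ^ 2 + b ^ 2 * (a ^ 2 - c ^ 2) ^ 2 + c ^ 2 * (a ^ 2 - b ^ 2) ^ 2) := by
    ring
  have h : 0 ≤ a * b * c * (a ^ 2 * (b ^ 2 - c ^ 2) ^ 2 + b ^ 2 * (a ^ 2 - c ^ 2) ^ 2 + c ^ 2 * (a ^ 2 - b ^ 2) ^ 2) := by
    positivity
  linarith

lemma Gp_nonneg {u0 u1 u2 : ℝ} (h : InT u0 u1 u2) : 0 ≤ Gp u0 u1 u2 := by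
  obtain ⟨_, h0, h1, h2⟩ := h
  have a := rt_nonneg (by linarith : 0 ≤ 1 + u0)
  have b := rt_nonneg (by linarith : 0 ≤ 1 + u1)
  have c := rt_nonneg (by linarith : 0 ≤ 1 + u2)
  unfold Gp Gk mon
  positivity

lemma Gp_le_Gq {u0 u1 u2 : ℝ} (h : InT u0 u1 u2) : Gp u0 u1 u2 ≤ Gq u0 u1 u2 := by
  obtain ⟨_, h0, h1, h2⟩ := h
  have a := rt_nonneg (by linarith : 0 ≤ 1 + u0)
  have b := rt_nonneg (by linarith : 0 ≤ 1 + u1)
  have c := rt_nonneg (by linarith : 0 ≤ 1 + u2)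
  have := mono_pt a b c
  unfold Gp Gq avg6 Gk mon
  linarith

lemma Gp_le_one {u0 u1 u2 : ℝ} (h : InT u0 u1 u2) : Gp u0 u1 u2 ≤ 1 := by
  obtain ⟨hs, h0, h1, h2⟩ := h
  have p0 : 0 ≤ 1 + u0 := by linarith
  have p1 : 0 ≤ 1 + u1 := by linarith
  have p2 : 0 ≤ 1 + u2 := by linarith
  have a := rt_nonneg p0
  have b := rt_nonneg p1
  have c := rt_nonneg p2
  have e0 := rt_pow p0
  have e1 := rt_pow p1
  have e2 := rt_pow p2
  have hG : 0 ≤ Gp u0 u1 u2 := by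
    unfold Gp Gk mon
    positivity
  have e : (Gp u0 u1 u2) ^ 3 = (1 + u0) * (1 + u1) * (1 + u2) := by
    have e' : (Gp u0 u1 u2) ^ 3 = rt (1 + u0) ^ 9 * rt (1 + u1) ^ 9 * rt (1 + u2) ^ 9 := by
      unfold Gp Gk mon
      ring
    rw [e', e0, e1, e2]
  have h3 : (1 + u0) * (1 + u1) * (1 + u2) ≤ 1 := by
    have e3 : u2 = -u0 - u1 := by linarith
    subst e3
    nlinarith [mul_nonneg p0 (sq_nonneg (u0 - u1)), mul_nonneg p1 (sq_nonneg (u0 - (-u0 - u1))),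
      mul_nonneg p2 (sq_nonneg (u1 - (-u0 - u1))), sq_nonneg u0, sq_nonneg u1, sq_nonneg (u0 + u1)]
  by_contra hc
  have hc' : 1 < Gp u0 u1 u2 := not_le.1 hc
  have : 1 < (Gp u0 u1 u2) ^ 3 := one_lt_pow₀ hc' (by norm_num)
  linarith

lemma InT_scale {lam u0 u1 u2 : ℝ} (h1 : -(1 / 2) ≤ lam) (h2 : lam ≤ 1) (h : InT u0 u1 u2) :
    InT (lam * u0) (lam * u1) (lam * u2) := by
  obtain ⟨hs, h0, h1', h2'⟩ := h
  have h3 : u0 ≤ 2 := by linarith
  have h4 : u1 ≤ 2 := by linarith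
  have h5 : u2 ≤ 2 := by linarith
  have key : ∀ x : ℝ, -1 ≤ x → x ≤ 2 → -1 ≤ lam * x := by
    intro x hx hx2
    by_cases h0 : 0 ≤ lam
    · nlinarith
    · have h0' : lam < 0 := not_le.1 h0
      nlinarith
  refine ⟨?_, key _ h0 h3, key _ h1' h4, key _ h2' h5⟩
  have : lam * u0 + lam * u1 + lam * u2 = lam * (u0 + u1 + u2) := by ring
  rw [this, hs, mul_zero]

end pointwise

section mean

variable {d : ℕ} {lam : ℝ}

lemma msg_InT (h1 : -(1 / 2) ≤ lam) (h2 : lam ≤ 1) (n : ℕ) (s : LeafConfig 3 d n) :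
    InT (msg lam n s 0) (msg lam n s 1) (msg lam n s 2) :=
  ⟨msg_sum lam n s, msg_ge h1 h2 n s 0, msg_ge h1 h2 n s 1, msg_ge h1 h2 n s 2⟩

lemma En_lin (n : ℕ) (a b c : ℝ) (f g : ℝ → ℝ → ℝ → ℝ) :
    En d lam n (fun u0 u1 u2 => a * f u0 u1 u2 + b * g u0 u1 u2 + c)
      = a * En d lam n f + b * En d lam n g + c := by
  unfold En
  rw [Finset.mul_sum, Finset.mul_sum]
  have : c = ∑ s : LeafConfig 3 d n, Zf lam n s * c := by
    rw [← Finset.sum_mul, sum_Z, one_mul]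
  rw [this, ← Finset.sum_add_distrib, ← Finset.sum_add_distrib]
  · apply Finset.sum_congr rfl
    intro s _
    have e : ∑ s : LeafConfig 3 d n, Zf lam n s * c = c := by
      rw [← Finset.sum_mul, sum_Z, one_mul]
    simp only [e]
    ring

lemma En_le (h1 : -(1 / 2) ≤ lam) (h2 : lam ≤ 1) (n : ℕ) {f g : ℝ → ℝ → ℝ → ℝ}
    (h : ∀ u0 u1 u2, InT u0 u1 u2 → f u0 u1 u2 ≤ g u0 u1 u2) :
    En d lam n f ≤ En d lam n g := by
  apply Finset.sum_le_sum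
  intro s _
  exact mul_le_mul_of_nonneg_left (h _ _ _ (msg_InT h1 h2 n s)) (Z_nonneg h1 h2 n s)

lemma En_nonneg (h1 : -(1 / 2) ≤ lam) (h2 : lam ≤ 1) (n : ℕ) {f : ℝ → ℝ → ℝ → ℝ}
    (h : ∀ u0 u1 u2, InT u0 u1 u2 → 0 ≤ f u0 u1 u2) : 0 ≤ En d lam n f := by
  apply Finset.sum_nonneg
  intro s _
  exact mul_nonneg (Z_nonneg h1 h2 n s) (h _ _ _ (msg_InT h1 h2 n s))

/-- Jensen's inequality for the square. -/
lemma En_sq_le (h1 : -(1 / 2) ≤ lam) (h2 : lam ≤ 1) (n : ℕ) (f : ℝ → ℝ → ℝ → ℝ) :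
    (En d lam n f) ^ 2 ≤ En d lam n (fun u0 u1 u2 => (f u0 u1 u2) ^ 2) := by
  have hm : 0 ≤ En d lam n (fun u0 u1 u2 => (f u0 u1 u2 - En d lam n f) ^ 2) :=
    En_nonneg h1 h2 n (fun _ _ _ _ => sq_nonneg _)
  have e : En d lam n (fun u0 u1 u2 => (f u0 u1 u2 - En d lam n f) ^ 2)
      = En d lam n (fun u0 u1 u2 => (f u0 u1 u2) ^ 2) - 2 * (En d lam n f) * En d lam n f
        + (En d lam n f) ^ 2 := by
    have := En_lin (d := d) (lam := lam) n 1 (-2 * En d lam n f) ((En d lam n f) ^ 2)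
      (fun u0 u1 u2 => (f u0 u1 u2) ^ 2) f
    have e2 : (fun u0 u1 u2 => (f u0 u1 u2 - En d lam n f) ^ 2)
        = (fun u0 u1 u2 => 1 * (fun u0 u1 u2 => (f u0 u1 u2) ^ 2) u0 u1 u2
          + (-2 * En d lam n f) * f u0 u1 u2 + (En d lam n f) ^ 2) := by
      funext u0 u1 u2
      ring
    rw [e2, this]
    ring
  rw [e] at hm
  nlinarith

end mean

section rd

/-- The remainder of the `d`-th power, divided by the square. -/
noncomputable def wd : ℕ → ℝ → ℝ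
  | 0, _ => 0
  | d + 1, x => (1 - x) * wd d x + d

lemma Rd_eq (d : ℕ) (x : ℝ) : (1 - x) ^ d - 1 + d * x = x ^ 2 * wd d x := by
  induction d with
  | zero => simp [wd]
  | succ d ih =>
    have e : (1 - x) ^ (d + 1) = (1 - x) * ((1 - x) ^ d - 1 + d * x) + (1 - x) - (1 - x) * d * x := by
      rw [pow_succ]; ring
    rw [e, ih]
    simp only [wd]
    push_cast
    ring

lemma wd_nonneg (d : ℕ) {x : ℝ} (hx : x ≤ 1) : 0 ≤ wd d x := by
  induction d with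
  | zero => simp [wd]
  | succ d ih =>
    simp only [wd]
    have : 0 ≤ (1 - x) * wd d x := mul_nonneg (by linarith) ih
    positivity

lemma wd_anti (d : ℕ) {x y : ℝ} (hy : y ≤ x) (hx : x ≤ 1) : wd d x ≤ wd d y := by
  induction d with
  | zero => simp [wd]
  | succ d ih =>
    simp only [wd]
    have h0 := wd_nonneg d hx
    have : (1 - x) * wd d x ≤ (1 - y) * wd d y := by
      apply mul_le_mul (by linarith) ih h0 (by linarith)
    linarith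

lemma wd_le (d : ℕ) {x : ℝ} (hx0 : 0 ≤ x) (hx : x ≤ 1) : wd d x ≤ (d : ℝ) * (d - 1) / 2 := by
  induction d with
  | zero => simp [wd]
  | succ d ih =>
    simp only [wd]
    have h0 := wd_nonneg d hx
    have : (1 - x) * wd d x ≤ wd d x := by nlinarith
    push_cast
    nlinarith

/-- The second order term of the two `d`-th powers is controlled by a square. -/
lemma Phi_le (d : ℕ) {x y : ℝ} (hy : y ≤ x) (hx0 : 0 ≤ x) (hx1 : x ≤ 1) :
    63 * ((1 - x) ^ d - 1 + d * x) - 81 * ((1 - y) ^ d - 1 + d * y)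
      ≤ (d : ℝ) * (d - 1) * (9 / 76) * (63 * x - 69 * y) ^ 2 := by
  rw [Rd_eq, Rd_eq]
  have h0 := wd_nonneg d hx1
  have h1 := wd_anti d hy hx1
  have h2 := wd_le d hx0 hx1
  have h3 : x ^ 2 * wd d x * 63 - 81 * (y ^ 2 * wd d y) ≤ wd d x * (63 * x ^ 2 - 81 * y ^ 2) := by
    nlinarith [mul_le_mul_of_nonneg_left h1 (sq_nonneg y)]
  have h4 : 63 * x ^ 2 - 81 * y ^ 2 ≤ (9 / 38) * (63 * x - 69 * y) ^ 2 := by
    nlinarith [sq_nonneg (27 * y - 23 * x)]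
  have h5 : 0 ≤ (9 / 38) * (63 * x - 69 * y) ^ 2 := by positivity
  have h6 : wd d x * (63 * x ^ 2 - 81 * y ^ 2) ≤ wd d x * ((9 / 38) * (63 * x - 69 * y) ^ 2) :=
    mul_le_mul_of_nonneg_left h4 h0
  have h7 : wd d x * ((9 / 38) * (63 * x - 69 * y) ^ 2)
      ≤ ((d : ℝ) * (d - 1) / 2) * ((9 / 38) * (63 * x - 69 * y) ^ 2) :=
    mul_le_mul_of_nonneg_right h2 h5
  nlinarith

end rd

section step

variable {d : ℕ} {lam : ℝ}

/-- One step of the Lyapunov argument. -/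
theorem En_psi_step (h1 : -(1 / 2) ≤ lam) (h2 : lam ≤ 1) (hdl : (d : ℝ) * lam ^ 2 ≤ 1) (hd : 1 ≤ d)
    {ε c0 : ℝ} (hε : 0 < ε) (hc0 : 9 / 76 ≤ c0)
    (hpos : ∀ u0 u1 u2, InT u0 u1 u2 → 0 ≤ psiF u0 u1 u2)
    (hPW : ∀ u0 u1 u2, InT u0 u1 u2 →
      ((d : ℝ) - 1) * c0 * (WF (lam * u0) (lam * u1) (lam * u2)) ^ 2 + ε * lam ^ 2 * (sq3 u0 u1 u2) ^ 2
        ≤ lam ^ 2 * psiF u0 u1 u2 - psiF (lam * u0) (lam * u1) (lam * u2)) (n : ℕ) :
    En d lam (n + 1) psiF ≤ En d lam n psiF - (d : ℝ) * ε * lam ^ 2 * (En d lam n sq3) ^ 2 := by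
  set Eq := En d lam n (fun u0 u1 u2 => Gq (lam * u0) (lam * u1) (lam * u2)) with hEq
  set Ep := En d lam n (fun u0 u1 u2 => Gp (lam * u0) (lam * u1) (lam * u2)) with hEp
  -- the mean of the potential at the next level
  have e1 : En d lam (n + 1) psiF = 81 * (1 - Eq ^ d) - 63 * (1 - Ep ^ d) := by
    have := En_lin (d := d) (lam := lam) (n + 1) (-81) 63 18 Gq Gp
    have e2 : psiF = (fun u0 u1 u2 => -81 * Gq u0 u1 u2 + 63 * Gp u0 u1 u2 + 18) := by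
      funext u0 u1 u2; unfold psiF; ring
    rw [e2, this, En_Gq_succ h1 h2, En_Gp_succ h1 h2]
    ring
  -- the scaled means
  have e3 : En d lam n (fun u0 u1 u2 => psiF (lam * u0) (lam * u1) (lam * u2))
      = 81 * (1 - Eq) - 63 * (1 - Ep) := by
    have := En_lin (d := d) (lam := lam) n (-81) 63 18
      (fun u0 u1 u2 => Gq (lam * u0) (lam * u1) (lam * u2))
      (fun u0 u1 u2 => Gp (lam * u0) (lam * u1) (lam * u2))
    have e2 : (fun u0 u1 u2 => psiF (lam * u0) (lam * u1) (lam * u2))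
        = (fun u0 u1 u2 => -81 * Gq (lam * u0) (lam * u1) (lam * u2)
            + 63 * Gp (lam * u0) (lam * u1) (lam * u2) + 18) := by
      funext u0 u1 u2; unfold psiF; ring
    rw [e2, this]
    ring
  have e4 : En d lam n (fun u0 u1 u2 => WF (lam * u0) (lam * u1) (lam * u2))
      = 63 * (1 - Ep) - 69 * (1 - Eq) := by
    have := En_lin (d := d) (lam := lam) n (69) (-63) (-6)
      (fun u0 u1 u2 => Gq (lam * u0) (lam * u1) (lam * u2))
      (fun u0 u1 u2 => Gp (lam * u0) (lam * u1) (lam * u2))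
    have e2 : (fun u0 u1 u2 => WF (lam * u0) (lam * u1) (lam * u2))
        = (fun u0 u1 u2 => 69 * Gq (lam * u0) (lam * u1) (lam * u2)
            + -63 * Gp (lam * u0) (lam * u1) (lam * u2) + -6) := by
      funext u0 u1 u2; unfold WF; ring
    rw [e2, this]
    ring
  -- bounds on the means
  have b1 : Ep ≤ Eq := En_le h1 h2 n fun u0 u1 u2 hu => Gp_le_Gq (InT_scale h1 h2 hu)
  have b2 : Ep ≤ 1 := by
    have := En_le (d := d) (lam := lam) h1 h2 n (f := fun u0 u1 u2 => Gp (lam * u0) (lam * u1) (lam * u2))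
      (g := fun u0 u1 u2 => 0 * Gp u0 u1 u2 + 0 * Gp u0 u1 u2 + 1)
      (fun u0 u1 u2 hu => by simpa using Gp_le_one (InT_scale h1 h2 hu))
    rw [En_lin] at this
    simpa using this
  have b3 : 0 ≤ Ep := En_nonneg h1 h2 n fun u0 u1 u2 hu => Gp_nonneg (InT_scale h1 h2 hu)
  -- the second order term
  have hphi := Phi_le d (x := 1 - Ep) (y := 1 - Eq) (by linarith) (by linarith) (by linarith)
  have e5 : (1 - (1 - Ep)) = Ep := by ring
  have e6 : (1 - (1 - Eq)) = Eq := by ring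
  rw [e5, e6] at hphi
  -- integrated pointwise inequality
  set Q := En d lam n (fun u0 u1 u2 => (WF (lam * u0) (lam * u1) (lam * u2)) ^ 2) with hQ
  set Y := En d lam n (fun u0 u1 u2 => (sq3 u0 u1 u2) ^ 2) with hY
  set P := En d lam n psiF with hP
  have hI : ((d : ℝ) - 1) * c0 * Q + ε * lam ^ 2 * Y ≤ lam ^ 2 * P - (81 * (1 - Eq) - 63 * (1 - Ep)) := by
    have h3 := En_le (d := d) (lam := lam) h1 h2 n hPW
    have e7 := En_lin (d := d) (lam := lam) n (((d : ℝ) - 1) * c0) (ε * lam ^ 2) 0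
      (fun u0 u1 u2 => (WF (lam * u0) (lam * u1) (lam * u2)) ^ 2) (fun u0 u1 u2 => (sq3 u0 u1 u2) ^ 2)
    have e8 := En_lin (d := d) (lam := lam) n (lam ^ 2) (-1) 0 psiF
      (fun u0 u1 u2 => psiF (lam * u0) (lam * u1) (lam * u2))
    simp only [add_zero] at e7 e8
    have e9 : (fun u0 u1 u2 => lam ^ 2 * psiF u0 u1 u2 - psiF (lam * u0) (lam * u1) (lam * u2))
        = (fun u0 u1 u2 => lam ^ 2 * psiF u0 u1 u2 + -1 * psiF (lam * u0) (lam * u1) (lam * u2)) := by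
      funext u0 u1 u2; ring
    rw [e9, e8, e7, e3] at h3
    linarith
  have hJ1 := En_sq_le (d := d) (lam := lam) h1 h2 n (fun u0 u1 u2 => WF (lam * u0) (lam * u1) (lam * u2))
  rw [e4] at hJ1
  have hJ2 := En_sq_le (d := d) (lam := lam) h1 h2 n sq3
  have hP0 : 0 ≤ P := En_nonneg h1 h2 n hpos
  have hd1 : (1 : ℝ) ≤ d := by exact_mod_cast hd
  have hd0 : (0 : ℝ) ≤ d := by linarith
  have hdd : 0 ≤ (d : ℝ) * (d - 1) := mul_nonneg hd0 (by linarith)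
  set ℓ := 63 * (1 - Ep) - 69 * (1 - Eq) with hℓ
  have hc1 : (d : ℝ) * (d - 1) * (9 / 76) * ℓ ^ 2 ≤ (d : ℝ) * (d - 1) * c0 * Q := by
    have hQ0 : 0 ≤ Q := le_trans (sq_nonneg _) hJ1
    have h4 : (9 / 76) * ℓ ^ 2 ≤ c0 * Q := mul_le_mul hc0 hJ1 (sq_nonneg _) (by linarith)
    have := mul_le_mul_of_nonneg_left h4 hdd
    nlinarith
  have hmul := mul_le_mul_of_nonneg_left hI hd0
  have hY2 : (d : ℝ) * ε * lam ^ 2 * (En d lam n sq3) ^ 2 ≤ (d : ℝ) * ε * lam ^ 2 * Y := by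
    apply mul_le_mul_of_nonneg_left hJ2
    positivity
  have hP1 : (d : ℝ) * lam ^ 2 * P ≤ P := by nlinarith
  rw [e1]
  -- assemble
  have hphi2 : 63 * (Ep ^ d - 1 + d * (1 - Ep)) - 81 * (Eq ^ d - 1 + d * (1 - Eq))
      ≤ (d : ℝ) * (d - 1) * (9 / 76) * ℓ ^ 2 := hphi
  nlinarith

/-- A nonnegative quantity decreasing by at least a multiple of a square: the square tends to zero. -/
lemma tendsto_of_decrement {l b : ℕ → ℝ} {κ : ℝ} (hκ : 0 < κ) (h0 : ∀ n, 0 ≤ l n) (hb : ∀ n, 0 ≤ b n)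
    (h : ∀ n, l (n + 1) ≤ l n - κ * (b n) ^ 2) : Tendsto b atTop (𝓝 0) := by
  have hanti : Antitone l := by
    apply antitone_nat_of_succ_le
    intro n
    have := h n
    have h2 : 0 ≤ κ * (b n) ^ 2 := by positivity
    linarith
  have hbdd : BddBelow (Set.range l) := ⟨0, by rintro _ ⟨n, rfl⟩; exact h0 n⟩
  have hlim := tendsto_atTop_ciInf hanti hbdd
  have h1 : Tendsto (fun n => l n - l (n + 1)) atTop (𝓝 0) := by
    have := hlim.sub (hlim.comp (tendsto_add_atTop_nat 1))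
    simpa using this
  have h2 : Tendsto (fun n => (b n) ^ 2) atTop (𝓝 0) := by
    apply squeeze_zero (fun n => sq_nonneg (b n)) (g := fun n => (l n - l (n + 1)) / κ)
    · intro n
      rw [le_div_iff₀ hκ]
      have := h n
      linarith
    · simpa using h1.div_const κ
  have h3 : Tendsto (fun n => Real.sqrt ((b n) ^ 2)) atTop (𝓝 (Real.sqrt 0)) :=
    (Real.continuous_sqrt.tendsto 0).comp h2
  simp only [Real.sqrt_zero] at h3
  refine h3.congr fun n => ?_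
  exact Real.sqrt_sq (hb n)

/-- Nonreconstruction from the pointwise inequality. -/
theorem gap_of_pw (h1 : -(1 / 2) ≤ lam) (h2 : lam ≤ 1) (hl : lam ≠ 0) (hdl : (d : ℝ) * lam ^ 2 ≤ 1) (hd : 1 ≤ d)
    {ε c0 : ℝ} (hε : 0 < ε) (hc0 : 9 / 76 ≤ c0)
    (hpos : ∀ u0 u1 u2, InT u0 u1 u2 → 0 ≤ psiF u0 u1 u2)
    (hPW : ∀ u0 u1 u2, InT u0 u1 u2 →
      ((d : ℝ) - 1) * c0 * (WF (lam * u0) (lam * u1) (lam * u2)) ^ 2 + ε * lam ^ 2 * (sq3 u0 u1 u2) ^ 2
        ≤ lam ^ 2 * psiF u0 u1 u2 - psiF (lam * u0) (lam * u1) (lam * u2)) :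
    Tendsto (fun n => reconstructionGap 3 d lam n) atTop (𝓝 0) := by
  apply gap_tendsto h1 h2
  have hd1 : (0 : ℝ) < d := by exact_mod_cast hd
  have hl2 : 0 < lam ^ 2 := by positivity
  apply tendsto_of_decrement (l := fun n => En d lam n psiF) (κ := (d : ℝ) * ε * lam ^ 2)
    (by positivity) (fun n => En_nonneg h1 h2 n hpos) (fun n => En_sq3_nonneg h1 h2 n)
  exact En_psi_step h1 h2 hdl hd hε hc0 hpos hPW

/-- Nonreconstruction when the channel is trivial. -/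
theorem gap_zero_lam (d : ℕ) : Tendsto (fun n => reconstructionGap 3 d 0 n) atTop (𝓝 0) := by
  have h1 : -(1 / 2) ≤ (0 : ℝ) := by norm_num
  have h2 : (0 : ℝ) ≤ 1 := by norm_num
  apply gap_tendsto h1 h2
  apply tendsto_atTop_of_eventually_const (i₀ := 1)
  intro n hn
  obtain ⟨m, rfl⟩ : ∃ m, n = m + 1 := ⟨n - 1, by omega⟩
  unfold En
  apply Finset.sum_eq_zero
  intro s _
  have hL : ∀ i : Fin 3, leafLik 3 d 0 (m + 1) i s = ∏ c : Fin d, Zf 0 m (s c) := by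
    intro i
    show ∏ c : Fin d, ∑ j : Fin 3, pottsChannel 3 0 i j * leafLik 3 d 0 m j (s c) = _
    apply Finset.prod_congr rfl
    intro c _
    rw [lik_child' h1 h2]
    ring
  have hZ : Zf 0 (m + 1) s = ∏ c : Fin d, Zf 0 m (s c) := by
    have e : Zf 0 (m + 1) s = (1 / 3) * ∑ i : Fin 3, leafLik 3 d 0 (m + 1) i s := rfl
    rw [e, Fin.sum_univ_three, hL 0, hL 1, hL 2]
    ring
  have hm : ∀ i : Fin 3, msg 0 (m + 1) s i = 0 := by
    intro i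
    unfold msg
    split_ifs with h
    · rfl
    · rw [hL i, ← hZ, div_self h]; ring
  rw [hm 0, hm 1, hm 2]
  simp [sq3]

end step

end ST

end Vale.Agent.Lib.P154
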