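import Mathlib.Data.Real.Basic

/-!
Homogeneous polynomials in the roots of the message.
-/

namespace Vale.Agent.Lib.P154

namespace ST

/-- The sum of ninth powers. -/
noncomputable def Sy (y0 y1 y2 : ℝ) : ℝ := y0 ^ 9 + y1 ^ 9 + y2 ^ 9

/-- The sum over permutations of the monomial with exponents `(5, 3, 1)`. -/
noncomputable def mqy (y0 y1 y2 : ℝ) : ℝ :=
  y0 ^ 5 * y1 ^ 3 * y2 ^ 1 + y0 ^ 5 * y2 ^ 3 * y1 ^ 1 + y1 ^ 5 * y0 ^ 3 * y2 ^ 1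
    + y1 ^ 5 * y2 ^ 3 * y0 ^ 1 + y2 ^ 5 * y0 ^ 3 * y1 ^ 1 + y2 ^ 5 * y1 ^ 3 * y0 ^ 1

/-- The monomial with exponents `(3, 3, 3)`. -/
noncomputable def e3y (y0 y1 y2 : ℝ) : ℝ := y0 ^ 3 * y1 ^ 3 * y2 ^ 3

/-- The numerator of the potential. -/
noncomputable def Lpy (y0 y1 y2 : ℝ) : ℝ :=
  18 * Sy y0 y1 y2 - (81 / 2) * mqy y0 y1 y2 + 189 * e3y y0 y1 y2

/-- The numerator of the auxiliary function. -/
noncomputable def Wny (y0 y1 y2 : ℝ) : ℝ :=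
  -6 * Sy y0 y1 y2 - 189 * e3y y0 y1 y2 + (69 / 2) * mqy y0 y1 y2

/-- The numerator of the squared norm. -/
noncomputable def Nxy (y0 y1 y2 : ℝ) : ℝ :=
  (3 * y0 ^ 9 - Sy y0 y1 y2) ^ 2 + (3 * y1 ^ 9 - Sy y0 y1 y2) ^ 2 + (3 * y2 ^ 9 - Sy y0 y1 y2) ^ 2

end ST

end Vale.Agent.Lib.P154
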