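import Vale.Agent.Lib.P154.ST.RealDefs

/-! Real value of the side condition of the center chart. -/

namespace Vale.Agent.Lib.P154

namespace ST

set_option maxRecDepth 100000 in
theorem evR_gsc0 (r b l u : ℝ) : Ex.evR (nthEx gsc 0) [r, b, l, u] = ((rv 281475110928384 * cS r b l u) - (r * cPt r b l u)) :=
  evR_lc (v := ch r b l u) rfl (evR_lc (v := cg r b l u) rfl (evR_lc (v := cg2 r b l u) rfl (evR_lc (v := cg3 r b l u) rfl (evR_lc (v := cg4 r b l u) rfl (evR_lc (v := cg5 r b l u) rfl (evR_lc (v := cg6 r b l u) rfl (evR_lc (v := cg7 r b l u) rfl (evR_lc (v := cg8 r b l u) rfl (evR_lc (v := cg9 r b l u) rfl (evR_lc (v := ch2 r b l u) rfl (evR_lc (v := ch3 r b l u) rfl (evR_lc (v := ch4 r b l u) rfl (evR_lc (v := ch5 r b l u) rfl (evR_lc (v := ch6 r b l u) rfl (evR_lc (v := cMt r b l u) rfl (evR_lc (v := cst r b l u) rfl (evR_lc (v := cts r b l u) rfl (evR_lc (v := cS r b l u) rfl (evR_lc (v := cy0 r b l u) rfl (evR_lc (v := cy1 r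 b l u) rfl (evR_lc (v := cy2 r b l u) rfl (evR_lc (v := cD0 r b l u) rfl (evR_lc (v := cD1 r b l u) rfl (evR_lc (v := cD2 r b l u) rfl (evR_lc (v := cP0 r b l u) rfl (evR_lc (v := cP1 r b l u) rfl (evR_lc (v := cPt r b l u) rfl (evR_lc (v := cn0 r b l u) rfl (evR_lc (v := cn1 r b l u) rfl (evR_lc (v := cn2 r b l u) rfl (evR_lc (v := cNn r b l u) rfl (evR_lc (v := caa r b l u) rfl (evR_lc (v := ciS r b l u) rfl (evR_lc (v := ctt r b l u) rfl (rfl)))))))))))))))))))))))))))))))))))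

end ST

end Vale.Agent.Lib.P154
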