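import Vale.Agent.Lib.P154.ST.Lyap
import Vale.Agent.Lib.P154.ST.RealEq
import Vale.Agent.Lib.P154.ST.RealSide
import Vale.Agent.Lib.P154.ST.TopC

/-!
From the certified polynomial inequalities on the charts to the pointwise inequality on the triangle.
-/

namespace Vale.Agent.Lib.P154

namespace ST

open Filter Topology

/-- The upper bound function used at the top level. -/
noncomputable def rhsF (a t l : ℝ) : ℝ :=
  (l * l) * AbF (a - rv 281475312254976) (l * t - rv 281475043819520)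
    + (rv 281475008499200 * (rv 281475245146112 - l * l))
      * (BbF (a - rv 281475312254976) (l * t - rv 281475043819520)
        * BbF (a - rv 281475312254976) (l * t - rv 281475043819520))
    + rv 281474976841728

lemma rv_C0 : rv 281475008499200 = 31788544 / 268435456 := by
  unfold rv zv; norm_num

lemma rv_E : rv 281474976841728 = 1 / 2048 := by
  unfold rv zv; norm_num

lemma rv_one : rv 281475245146112 = 1 := by
  unfold rv zv; norm_num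

lemma rv_half : rv 281475110928384 = 1 / 2 := by
  unfold rv zv; norm_num

/-! ### Representation of the triangle by homogeneous coordinates -/

/-- The point `u` of the triangle has homogeneous coordinates `y`. -/
structure Rep (u0 u1 u2 y0 y1 y2 : ℝ) : Prop where
  pos : 0 < Sy y0 y1 y2
  e0 : u0 = (3 * y0 ^ 9 - Sy y0 y1 y2) / Sy y0 y1 y2
  e1 : u1 = (3 * y1 ^ 9 - Sy y0 y1 y2) / Sy y0 y1 y2
  e2 : u2 = (3 * y2 ^ 9 - Sy y0 y1 y2) / Sy y0 y1 y2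
  psi : psiF u0 u1 u2 = Lpy y0 y1 y2 / Sy y0 y1 y2
  w : WF u0 u1 u2 = Wny y0 y1 y2 / Sy y0 y1 y2
  gp : Gp u0 u1 u2 = 3 * e3y y0 y1 y2 / Sy y0 y1 y2
  gq : Gq u0 u1 u2 = mqy y0 y1 y2 / (2 * Sy y0 y1 y2)

lemma rep_of {u0 u1 u2 κ y0 y1 y2 : ℝ} (h : InT u0 u1 u2) (hκ : 0 < κ)
    (e0 : rt (1 + u0) = κ * y0) (e1 : rt (1 + u1) = κ * y1) (e2 : rt (1 + u2) = κ * y2) :
    Rep u0 u1 u2 y0 y1 y2 := by
  obtain ⟨hs, h0, h1, h2⟩ := h
  have p0 : 0 ≤ 1 + u0 := by linarith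
  have p1 : 0 ≤ 1 + u1 := by linarith
  have p2 : 0 ≤ 1 + u2 := by linarith
  have r0 := rt_pow p0
  have r1 := rt_pow p1
  have r2 := rt_pow p2
  rw [e0] at r0
  rw [e1] at r1
  rw [e2] at r2
  have hK : 0 < κ ^ 9 := by positivity
  have hKS : κ ^ 9 * Sy y0 y1 y2 = 3 := by
    unfold Sy
    have : κ ^ 9 * (y0 ^ 9 + y1 ^ 9 + y2 ^ 9) = (κ * y0) ^ 9 + (κ * y1) ^ 9 + (κ * y2) ^ 9 := by ring
    rw [this, r0, r1, r2]
    linarith
  have hS : 0 < Sy y0 y1 y2 := by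
    by_contra hc
    have hc' : Sy y0 y1 y2 ≤ 0 := not_lt.1 hc
    have := mul_nonpos_of_nonneg_of_nonpos hK.le hc'
    linarith
  have hSne : Sy y0 y1 y2 ≠ 0 := hS.ne'
  have hKe : κ ^ 9 = 3 / Sy y0 y1 y2 := by
    rw [eq_div_iff hSne]; exact hKS
  have eu : ∀ u y : ℝ, (κ * y) ^ 9 = 1 + u → u = (3 * y ^ 9 - Sy y0 y1 y2) / Sy y0 y1 y2 := by
    intro u y hu
    have : u = κ ^ 9 * y ^ 9 - 1 := by
      have e : (κ * y) ^ 9 = κ ^ 9 * y ^ 9 := by ring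
      rw [e] at hu
      linarith
    rw [this, hKe]
    field_simp
  have eGp : Gp u0 u1 u2 = κ ^ 9 * e3y y0 y1 y2 := by
    unfold Gp Gk mon e3y
    rw [e0, e1, e2]
    ring
  have eGq : Gq u0 u1 u2 = κ ^ 9 * (mqy y0 y1 y2 / 6) := by
    unfold Gq avg6 Gk mon mqy
    rw [e0, e1, e2]
    ring
  refine ⟨hS, eu _ _ r0, eu _ _ r1, eu _ _ r2, ?_, ?_, ?_, ?_⟩
  · unfold psiF
    rw [eGp, eGq, hKe]
    unfold Lpy
    field_simp
    ring
  · unfold WF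
    rw [eGp, eGq, hKe]
    unfold Wny
    field_simp
    ring
  · rw [eGp, hKe]
    field_simp
  · rw [eGq, hKe]
    field_simp
    ring

lemma Rep.sq {u0 u1 u2 y0 y1 y2 : ℝ} (R : Rep u0 u1 u2 y0 y1 y2) :
    sq3 u0 u1 u2 = Nxy y0 y1 y2 / (Sy y0 y1 y2) ^ 2 := by
  have hS := R.pos.ne'
  unfold sq3 Nxy
  rw [R.e0, R.e1, R.e2]
  field_simp

/-- The polynomial form of the inequality at the top level gives the inequality on the triangle. -/
lemma top_of_rep {u0 u1 u2 y0 y1 y2 l : ℝ} (R : Rep u0 u1 u2 y0 y1 y2) (hneg : u2 < 0)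
    (H : (Nxy y0 y1 y2) ^ 2 * rhsF ((3 * y0 ^ 9 - Sy y0 y1 y2) / (Sy y0 y1 y2 - 3 * y2 ^ 9))
        ((Sy y0 y1 y2 - 3 * y2 ^ 9) / Sy y0 y1 y2) l
      ≤ (Sy y0 y1 y2 * Lpy y0 y1 y2 - Nxy y0 y1 y2) * (Sy y0 y1 y2) ^ 2) :
    (sq3 u0 u1 u2) ^ 2 * rhsF (u0 / (-u2)) (-u2) l ≤ psiF u0 u1 u2 - sq3 u0 u1 u2 := by
  have hS := R.pos
  have hSne := hS.ne'
  set S := Sy y0 y1 y2 with hSd
  have e2 : -u2 = (S - 3 * y2 ^ 9) / S := by
    rw [R.e2]; ring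
  have hpt : S - 3 * y2 ^ 9 ≠ 0 := by
    intro h0
    rw [h0] at e2
    simp at e2
    linarith
  have e0 : u0 / (-u2) = (3 * y0 ^ 9 - S) / (S - 3 * y2 ^ 9) := by
    have e00 : u0 = (3 * y0 ^ 9 - S) / S := R.e0
    rw [e2, e00]
    field_simp
  rw [e0, e2, R.psi, R.sq]
  have hS4 : 0 < S ^ 4 := by positivity
  have e3 : Lpy y0 y1 y2 / S - Nxy y0 y1 y2 / S ^ 2
      = ((S * Lpy y0 y1 y2 - Nxy y0 y1 y2) * S ^ 2) / S ^ 4 := by
    field_simp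
  have e4 : (Nxy y0 y1 y2 / S ^ 2) ^ 2 * rhsF ((3 * y0 ^ 9 - S) / (S - 3 * y2 ^ 9)) ((S - 3 * y2 ^ 9) / S) l
      = ((Nxy y0 y1 y2) ^ 2 * rhsF ((3 * y0 ^ 9 - S) / (S - 3 * y2 ^ 9)) ((S - 3 * y2 ^ 9) / S) l) / S ^ 4 := by
    field_simp
  rw [e3, e4]
  exact div_le_div_of_nonneg_right H hS4.le

/-- The polynomial forms of the upper bounds give the upper bounds on the triangle. -/
lemma up_of_rep {u0 u1 u2 y0 y1 y2 : ℝ} (R : Rep u0 u1 u2 y0 y1 y2) (hneg : u2 < 0) {A B : ℝ → ℝ → ℝ}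
    (HA : (Sy y0 y1 y2 * Lpy y0 y1 y2 - Nxy y0 y1 y2) * (Sy y0 y1 y2) ^ 2
      ≤ (Nxy y0 y1 y2) ^ 2 * A ((3 * y0 ^ 9 - Sy y0 y1 y2) / (Sy y0 y1 y2 - 3 * y2 ^ 9))
        ((Sy y0 y1 y2 - 3 * y2 ^ 9) / Sy y0 y1 y2))
    (HB1 : Wny y0 y1 y2 * Sy y0 y1 y2 ≤ Nxy y0 y1 y2 * B ((3 * y0 ^ 9 - Sy y0 y1 y2) / (Sy y0 y1 y2 - 3 * y2 ^ 9))
        ((Sy y0 y1 y2 - 3 * y2 ^ 9) / Sy y0 y1 y2))
    (HB2 : - (Wny y0 y1 y2 * Sy y0 y1 y2) ≤ Nxy y0 y1 y2 * B ((3 * y0 ^ 9 - Sy y0 y1 y2) / (Sy y0 y1 y2 - 3 * y2 ^ 9))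
        ((Sy y0 y1 y2 - 3 * y2 ^ 9) / Sy y0 y1 y2)) :
    psiF u0 u1 u2 - sq3 u0 u1 u2 ≤ (sq3 u0 u1 u2) ^ 2 * A (u0 / (-u2)) (-u2) ∧
      WF u0 u1 u2 ≤ sq3 u0 u1 u2 * B (u0 / (-u2)) (-u2) ∧
      - WF u0 u1 u2 ≤ sq3 u0 u1 u2 * B (u0 / (-u2)) (-u2) := by
  have hS := R.pos
  have hSne := hS.ne'
  set S := Sy y0 y1 y2 with hSd
  have e2 : -u2 = (S - 3 * y2 ^ 9) / S := by
    rw [R.e2]; ring
  have hpt : S - 3 * y2 ^ 9 ≠ 0 := by
    intro h0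
    rw [h0] at e2
    simp at e2
    linarith
  have e0 : u0 / (-u2) = (3 * y0 ^ 9 - S) / (S - 3 * y2 ^ 9) := by
    have e00 : u0 = (3 * y0 ^ 9 - S) / S := R.e0
    rw [e2, e00]
    field_simp
  rw [e0, e2, R.psi, R.sq, R.w]
  have hS4 : 0 < S ^ 4 := by positivity
  have hS2 : 0 < S ^ 2 := by positivity
  refine ⟨?_, ?_, ?_⟩
  · have e3 : Lpy y0 y1 y2 / S - Nxy y0 y1 y2 / S ^ 2
        = ((S * Lpy y0 y1 y2 - Nxy y0 y1 y2) * S ^ 2) / S ^ 4 := by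
      field_simp
    have e4 : (Nxy y0 y1 y2 / S ^ 2) ^ 2 * A ((3 * y0 ^ 9 - S) / (S - 3 * y2 ^ 9)) ((S - 3 * y2 ^ 9) / S)
        = ((Nxy y0 y1 y2) ^ 2 * A ((3 * y0 ^ 9 - S) / (S - 3 * y2 ^ 9)) ((S - 3 * y2 ^ 9) / S)) / S ^ 4 := by
      field_simp
    rw [e3, e4]
    exact div_le_div_of_nonneg_right HA hS4.le
  · have e3 : Wny y0 y1 y2 / S = (Wny y0 y1 y2 * S) / S ^ 2 := by
      field_simp
    have e4 : Nxy y0 y1 y2 / S ^ 2 * B ((3 * y0 ^ 9 - S) / (S - 3 * y2 ^ 9)) ((S - 3 * y2 ^ 9) / S)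
        = (Nxy y0 y1 y2 * B ((3 * y0 ^ 9 - S) / (S - 3 * y2 ^ 9)) ((S - 3 * y2 ^ 9) / S)) / S ^ 2 := by
      field_simp
    rw [e3, e4]
    exact div_le_div_of_nonneg_right HB1 hS2.le
  · have e3 : - (Wny y0 y1 y2 / S) = (- (Wny y0 y1 y2 * S)) / S ^ 2 := by
      field_simp
    have e4 : Nxy y0 y1 y2 / S ^ 2 * B ((3 * y0 ^ 9 - S) / (S - 3 * y2 ^ 9)) ((S - 3 * y2 ^ 9) / S)
        = (Nxy y0 y1 y2 * B ((3 * y0 ^ 9 - S) / (S - 3 * y2 ^ 9)) ((S - 3 * y2 ^ 9) / S)) / S ^ 2 := by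
      field_simp
    rw [e3, e4]
    exact div_le_div_of_nonneg_right HB2 hS2.le

/-! ### The charts -/

lemma center_vals {r b l u : ℝ} (hr : 0 < r) :
    caa r b l u = (3 * (1 + r * b) ^ 9 - Sy (1 + r * b) (1 + r * (1 - b)) (1 - r))
        / (Sy (1 + r * b) (1 + r * (1 - b)) (1 - r) - 3 * (1 - r) ^ 9) ∧
      ctt r b l u = (Sy (1 + r * b) (1 + r * (1 - b)) (1 - r) - 3 * (1 - r) ^ 9)
        / Sy (1 + r * b) (1 + r * (1 - b)) (1 - r) := by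
  constructor
  · rw [← cP0_eq r b l u, ← cPt_eq r b l u, mul_div_mul_left _ _ hr.ne']
    rfl
  · rw [← cPt_eq r b l u, ← cS_eq r b l u]
    simp only [ctt, ciS, mul_assoc, div_eq_mul_inv]

lemma center_N {r b l u : ℝ} :
    Nxy (1 + r * b) (1 + r * (1 - b)) (1 - r) = r ^ 2 * (256 * cNn r b l u) := by
  have e0 := cP0_eq r b l u
  have e1 := cP1_eq r b l u
  have e2 := cPt_eq r b l u
  rw [cNn_eq]
  unfold Nxy
  have e3 : 3 * (1 - r) ^ 9 - Sy (1 + r * b) (1 + r * (1 - b)) (1 - r) = - (r * cPt r b l u) := by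
    rw [e2]; ring
  rw [← e0, ← e1, e3]
  ring

lemma inBox_all {c0 h0 c1 h1 c2 h2 c3 h3 : ℕ} {x0 x1 x2 x3 : ℝ}
    (e0 : |x0 - rv c0| ≤ (h0 : ℝ) / 268435456) (e1 : |x1 - rv c1| ≤ (h1 : ℝ) / 268435456)
    (e2 : |x2 - rv c2| ≤ (h2 : ℝ) / 268435456) (e3 : |x3 - rv c3| ≤ (h3 : ℝ) / 268435456) :
    InBox (Bx.mk c0 h0 c1 h1 c2 h2 c3 h3) x0 x1 x2 x3 := ⟨e0, e1, e2, e3⟩

lemma box_K3c {r b l : ℝ} (h0 : 0 ≤ r) (h1 : r ≤ 1 / 8) (h2 : 1 / 2 ≤ b) (h3 : b ≤ 2)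
    (h4 : 0 ≤ l) (h5 : l ≤ 1 / 2) : InBox rootK3c r b l 0 := by
  unfold rootK3c
  apply inBox_all <;> rw [abs_le] <;> unfold rv zv <;> norm_num <;> constructor <;> linarith

lemma box_K {r b : ℝ} (h0 : 0 ≤ r) (h1 : r ≤ 1 / 8) (h2 : 1 / 2 ≤ b) (h3 : b ≤ 2) :
    InBox rootKAu r b 0 0 ∧ InBox rootKBu r b 0 0 ∧ InBox rootKBl r b 0 0 := by
  refine ⟨?_, ?_, ?_⟩
  · unfold rootKAu
    apply inBox_all <;> rw [abs_le] <;> unfold rv zv <;> norm_num <;> constructor <;> linarith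
  · unfold rootKBu
    apply inBox_all <;> rw [abs_le] <;> unfold rv zv <;> norm_num <;> constructor <;> linarith
  · unfold rootKBl
    apply inBox_all <;> rw [abs_le] <;> unfold rv zv <;> norm_num <;> constructor <;> linarith

lemma box_K3f {r b l : ℝ} (h0 : 0 ≤ r) (h1 : r ≤ 1) (h2 : 0 ≤ b) (h3 : b ≤ 1)
    (h4 : 0 ≤ l) (h5 : l ≤ 1 / 2) : InBox rootK3f r b l 0 := by
  unfold rootK3f
  apply inBox_all <;> rw [abs_le] <;> unfold rv zv <;> norm_num <;> constructor <;> linarith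

/-- The top level inequality on the center chart. -/
theorem top_center {r b l : ℝ} (h0 : 0 < r) (h1 : r ≤ 1 / 8) (h2 : 1 / 2 ≤ b) (h3 : b ≤ 2)
    (h4 : 0 ≤ l) (h5 : l ≤ 1 / 2) :
    (Nxy (1 + r * b) (1 + r * (1 - b)) (1 - r)) ^ 2
        * rhsF ((3 * (1 + r * b) ^ 9 - Sy (1 + r * b) (1 + r * (1 - b)) (1 - r))
            / (Sy (1 + r * b) (1 + r * (1 - b)) (1 - r) - 3 * (1 - r) ^ 9))
          ((Sy (1 + r * b) (1 + r * (1 - b)) (1 - r) - 3 * (1 - r) ^ 9)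
            / Sy (1 + r * b) (1 + r * (1 - b)) (1 - r)) l
      ≤ (Sy (1 + r * b) (1 + r * (1 - b)) (1 - r) * Lpy (1 + r * b) (1 + r * (1 - b)) (1 - r)
          - Nxy (1 + r * b) (1 + r * (1 - b)) (1 - r))
        * (Sy (1 + r * b) (1 + r * (1 - b)) (1 - r)) ^ 2 := by
  have g := goodK3c r b l 0 (box_K3c h0.le h1 h2 h3 h4 h5) (by
    intro j
    rw [nthEx_nil]
    unfold Ex.evR rv zv
    norm_num)
  rw [evR_K3c] at g
  obtain ⟨ea, et⟩ := center_vals (r := r) (b := b) (l := l) (u := 0) h0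
  have eR : crhs3 r b l 0 = rhsF (caa r b l 0) (ctt r b l 0) l := rfl
  have eM := cMt_eq r b l 0
  have eS := cS_eq r b l 0
  have eN := center_N (r := r) (b := b) (l := l) (u := 0)
  rw [← ea, ← et, ← eM, eN, ← eS, ← eR]
  unfold RK3c at g
  have hr4 : 0 ≤ r ^ 4 * 65536 := by positivity
  have := mul_nonneg hr4 g
  nlinarith

/-- The upper bounds on the center chart. -/
theorem up_center {r b : ℝ} (h0 : 0 < r) (h1 : r ≤ 1 / 8) (h2 : 1 / 2 ≤ b) (h3 : b ≤ 2)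
    (hs : (Sy (1 + r * b) (1 + r * (1 - b)) (1 - r) - 3 * (1 - r) ^ 9)
      / Sy (1 + r * b) (1 + r * (1 - b)) (1 - r) ≤ 1 / 2)
    (hS : 0 < Sy (1 + r * b) (1 + r * (1 - b)) (1 - r)) :
    ((Sy (1 + r * b) (1 + r * (1 - b)) (1 - r) * Lpy (1 + r * b) (1 + r * (1 - b)) (1 - r)
          - Nxy (1 + r * b) (1 + r * (1 - b)) (1 - r))
        * (Sy (1 + r * b) (1 + r * (1 - b)) (1 - r)) ^ 2
      ≤ (Nxy (1 + r * b) (1 + r * (1 - b)) (1 - r)) ^ 2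
        * (fun a t => AbF (a - rv 281475312254976) (t - rv 281475043819520))
          ((3 * (1 + r * b) ^ 9 - Sy (1 + r * b) (1 + r * (1 - b)) (1 - r))
            / (Sy (1 + r * b) (1 + r * (1 - b)) (1 - r) - 3 * (1 - r) ^ 9))
          ((Sy (1 + r * b) (1 + r * (1 - b)) (1 - r) - 3 * (1 - r) ^ 9)
            / Sy (1 + r * b) (1 + r * (1 - b)) (1 - r))) ∧
    (Wny (1 + r * b) (1 + r * (1 - b)) (1 - r) * Sy (1 + r * b) (1 + r * (1 - b)) (1 - r)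
      ≤ Nxy (1 + r * b) (1 + r * (1 - b)) (1 - r)
        * (fun a t => BbF (a - rv 281475312254976) (t - rv 281475043819520))
          ((3 * (1 + r * b) ^ 9 - Sy (1 + r * b) (1 + r * (1 - b)) (1 - r))
            / (Sy (1 + r * b) (1 + r * (1 - b)) (1 - r) - 3 * (1 - r) ^ 9))
          ((Sy (1 + r * b) (1 + r * (1 - b)) (1 - r) - 3 * (1 - r) ^ 9)
            / Sy (1 + r * b) (1 + r * (1 - b)) (1 - r))) ∧
    (- (Wny (1 + r * b) (1 + r * (1 - b)) (1 - r) * Sy (1 + r * b) (1 + r * (1 - b)) (1 - r))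
      ≤ Nxy (1 + r * b) (1 + r * (1 - b)) (1 - r)
        * (fun a t => BbF (a - rv 281475312254976) (t - rv 281475043819520))
          ((3 * (1 + r * b) ^ 9 - Sy (1 + r * b) (1 + r * (1 - b)) (1 - r))
            / (Sy (1 + r * b) (1 + r * (1 - b)) (1 - r) - 3 * (1 - r) ^ 9))
          ((Sy (1 + r * b) (1 + r * (1 - b)) (1 - r) - 3 * (1 - r) ^ 9)
            / Sy (1 + r * b) (1 + r * (1 - b)) (1 - r))) := by
  obtain ⟨b1, b2, b3⟩ := box_K h0.le h1 h2 h3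
  obtain ⟨ea, et⟩ := center_vals (r := r) (b := b) (l := (0 : ℝ)) (u := (0 : ℝ)) h0
  have eW := cWt_eq r b 0 0
  have eM := cMt_eq r b 0 0
  have eS := cS_eq r b 0 0
  have eP := cPt_eq r b 0 0
  have eN := center_N (r := r) (b := b) (l := (0 : ℝ)) (u := (0 : ℝ))
  have side : ∀ j, 0 ≤ Ex.evR (nthEx gsc j) [r, b, 0, 0] := by
    intro j
    cases j with
    | zero =>
      rw [evR_gsc0, rv_half, eS, eP]
      rw [div_le_iff₀ hS] at hs
      linarith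
    | succ j =>
      have : nthEx gsc (j + 1) = Ex.c 281474976710656 := rfl
      rw [this]
      unfold Ex.evR rv zv
      norm_num
  have gA := goodKAu r b 0 0 b1 side
  have gBu := goodKBu r b 0 0 b2 side
  have gBl := goodKBl r b 0 0 b3 side
  rw [evR_KAu] at gA
  rw [evR_KBu] at gBu
  rw [evR_KBl] at gBl
  have hr4 : 0 ≤ r ^ 4 * 65536 := by positivity
  have hr2 : 0 ≤ r ^ 2 * 256 := by positivity
  have eA : cAba r b 0 0 = AbF (caa r b 0 0 - rv 281475312254976) (ctt r b 0 0 - rv 281475043819520) := rfl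
  have eB : cBba r b 0 0 = BbF (caa r b 0 0 - rv 281475312254976) (ctt r b 0 0 - rv 281475043819520) := rfl
  have ek : rv 281474977759232 = 1 / 256 := by unfold rv zv; norm_num
  show (_ ≤ _ * AbF _ _) ∧ (_ ≤ _ * BbF _ _) ∧ (_ ≤ _ * BbF _ _)
  rw [← ea, ← et, ← eB, ← eA, ← eM, ← eW, eN, ← eS]
  refine ⟨?_, ?_, ?_⟩
  · unfold RKAu cNN at gA
    have := mul_nonneg hr4 gA
    nlinarith
  · unfold RKBu cWs at gBu
    rw [ek] at gBu
    have := mul_nonneg hr2 gBu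
    nlinarith
  · unfold RKBl cWs at gBl
    rw [ek] at gBl
    have := mul_nonneg hr2 gBl
    nlinarith

/-! ### The far chart -/

lemma far_vals (r b l u : ℝ) :
    fS r b l u = Sy 1 r b ∧ fLp r b l u = Lpy 1 r b ∧ fNx r b l u = Nxy 1 r b ∧
    fP0 r b l u = 3 * (1 : ℝ) ^ 9 - Sy 1 r b ∧ fPt r b l u = Sy 1 r b - 3 * b ^ 9 := by
  have eS : fS r b l u = Sy 1 r b := by
    simp only [fS, fa9, fa8, fa7, fa6, fa5, fa4, fa3, fa2, fb9, fb8, fb7, fb6, fb5, fb4, fb3, fb2, Sy, rv, zv]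
    push_cast
    ring
  have eP0 : fP0 r b l u = 3 * (1 : ℝ) ^ 9 - Sy 1 r b := by
    rw [← eS]
    simp only [fP0, rv, zv]
    push_cast
    ring
  have eP1 : fP1 r b l u = 3 * r ^ 9 - Sy 1 r b := by
    rw [← eS]
    simp only [fP1, fa9, fa8, fa7, fa6, fa5, fa4, fa3, fa2, rv, zv]
    push_cast
    ring
  have ePt : fPt r b l u = Sy 1 r b - 3 * b ^ 9 := by
    rw [← eS]
    simp only [fPt, fb9, fb8, fb7, fb6, fb5, fb4, fb3, fb2, rv, zv]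
    push_cast
    ring
  refine ⟨eS, ?_, ?_, eP0, ePt⟩
  · simp only [fLp, fS, fmq, fmp, fa9, fa8, fa7, fa6, fa5, fa4, fa3, fa2, fb9, fb8, fb7, fb6, fb5, fb4, fb3, fb2,
      Lpy, Sy, mqy, e3y, rv, zv]
    push_cast
    ring
  · have e3 : 3 * b ^ 9 - Sy 1 r b = - fPt r b l u := by rw [ePt]; ring
    have e4 : 3 * (1 : ℝ) ^ 9 - Sy 1 r b = fP0 r b l u := eP0.symm
    have e5 : 3 * r ^ 9 - Sy 1 r b = fP1 r b l u := eP1.symm
    unfold fNx Nxy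
    rw [e3, e4, e5]
    ring

/-- The top level inequality on the far chart. -/
theorem top_far {r b l : ℝ} (h0 : 0 ≤ r) (h1 : r ≤ 1) (h2 : 0 ≤ b) (h3 : b ≤ 1)
    (h4 : 0 ≤ l) (h5 : l ≤ 1 / 2) (hrb : b ≤ r) (hs : 17 * b ≤ 7 * (1 + r)) :
    (Nxy 1 r b) ^ 2 * rhsF ((3 * (1 : ℝ) ^ 9 - Sy 1 r b) / (Sy 1 r b - 3 * b ^ 9))
        ((Sy 1 r b - 3 * b ^ 9) / Sy 1 r b) l
      ≤ (Sy 1 r b * Lpy 1 r b - Nxy 1 r b) * (Sy 1 r b) ^ 2 := by
  have e7 : rv 281476855758848 = 7 := by unfold rv zv; norm_num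
  have e17 : rv 281479540113408 = 17 := by unfold rv zv; norm_num
  have g := goodK3f r b l 0 (box_K3f h0 h1 h2 h3 h4 h5) (by
    intro j
    match j with
    | 0 =>
      show 0 ≤ r - b
      linarith
    | 1 =>
      show 0 ≤ rv 281476855758848 * (rv 281475245146112 + r) - rv 281479540113408 * b
      rw [e7, e17, rv_one]
      linarith
    | (j + 2) =>
      have : nthEx gsf (j + 2) = Ex.c 281474976710656 := rfl
      rw [this]
      unfold Ex.evR rv zv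
      norm_num)
  rw [evR_K3f] at g
  obtain ⟨eS, eL, eN, eP0, ePt⟩ := far_vals r b l 0
  have ea : faa r b l 0 = (3 * (1 : ℝ) ^ 9 - Sy 1 r b) / (Sy 1 r b - 3 * b ^ 9) := by
    rw [← eP0, ← ePt]; rfl
  have et : ftt r b l 0 = (Sy 1 r b - 3 * b ^ 9) / Sy 1 r b := by
    rw [← ePt, ← eS]; rfl
  have eR : frhs3 r b l 0 = rhsF (faa r b l 0) (ftt r b l 0) l := rfl
  rw [← ea, ← et, ← eS, ← eL, ← eN, ← eR]
  unfold RK3f fM at g
  nlinarith

/-! ### Sorted points of the triangle -/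

lemma rt_mono {x y : ℝ} (hx : 0 ≤ x) (h : x ≤ y) : rt x ≤ rt y :=
  Real.rpow_le_rpow hx h (by norm_num)

lemma rt_lt {x y : ℝ} (hx : 0 ≤ x) (h : x < y) : rt x < rt y :=
  Real.rpow_lt_rpow hx h (by norm_num)

/-- The data of a sorted point of the triangle. -/
structure Srt (u0 u1 u2 r0 r1 r2 : ℝ) : Prop where
  t : InT u0 u1 u2
  e0 : rt (1 + u0) = r0
  e1 : rt (1 + u1) = r1
  e2 : rt (1 + u2) = r2
  p0 : r0 ^ 9 = 1 + u0
  p1 : r1 ^ 9 = 1 + u1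
  p2 : r2 ^ 9 = 1 + u2
  n2 : 0 ≤ r2
  o12 : r2 ≤ r1
  o01 : r1 ≤ r0
  s02 : r2 < r0

lemma srt_of {u0 u1 u2 : ℝ} (hT : InT u0 u1 u2) (h01 : u1 ≤ u0) (h12 : u2 ≤ u1) (hneg : u2 < 0) :
    Srt u0 u1 u2 (rt (1 + u0)) (rt (1 + u1)) (rt (1 + u2)) := by
  have hT' := hT
  obtain ⟨hs, h0, h1, h2⟩ := hT'
  have p2 : 0 ≤ 1 + u2 := by linarith
  have p1 : 0 ≤ 1 + u1 := by linarith
  have p0 : 0 ≤ 1 + u0 := by linarith
  refine ⟨hT, rfl, rfl, rfl, rt_pow p0, rt_pow p1, rt_pow p2, rt_nonneg p2,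
    rt_mono p2 (by linarith), rt_mono p1 (by linarith), rt_lt p2 (by linarith)⟩

/-- Center coordinates of a sorted point. -/
lemma center_rep {u0 u1 u2 r0 r1 r2 : ℝ} (H : Srt u0 u1 u2 r0 r1 r2) :
    ∃ τ a : ℝ, 0 < τ ∧ 1 / 2 ≤ a ∧ a ≤ 2 ∧ τ * (r0 + r1 + r2) = r0 + r1 - 2 * r2 ∧
      Rep u0 u1 u2 (1 + τ * a) (1 + τ * (1 - a)) (1 - τ) := by
  obtain ⟨hT, e0, e1, e2, p0, p1, p2, n2, o12, o01, s02⟩ := H
  have hσ : 0 < r0 + r1 + r2 := by linarith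
  have hd : 0 < r0 + r1 - 2 * r2 := by linarith
  have hσn := hσ.ne'
  have hdn := hd.ne'
  refine ⟨(r0 + r1 - 2 * r2) / (r0 + r1 + r2), (2 * r0 - r1 - r2) / (r0 + r1 - 2 * r2),
    div_pos hd hσ, ?_, ?_, ?_, ?_⟩
  · rw [le_div_iff₀ hd]; linarith
  · rw [div_le_iff₀ hd]; linarith
  · field_simp
  · have e : ((r0 + r1 - 2 * r2) / (r0 + r1 + r2)) * ((2 * r0 - r1 - r2) / (r0 + r1 - 2 * r2))
        = (2 * r0 - r1 - r2) / (r0 + r1 + r2) := by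
      field_simp
    have e' : ((r0 + r1 - 2 * r2) / (r0 + r1 + r2)) * (1 - (2 * r0 - r1 - r2) / (r0 + r1 - 2 * r2))
        = ((r0 + r1 - 2 * r2) - (2 * r0 - r1 - r2)) / (r0 + r1 + r2) := by
      rw [mul_sub, e, mul_one]
      ring
    apply rep_of hT (κ := (r0 + r1 + r2) / 3) (by positivity)
    · rw [e0, e]; field_simp; ring
    · rw [e1, e']; field_simp; ring
    · rw [e2]; field_simp; ring

/-- Far coordinates of a sorted point. -/
lemma far_rep {u0 u1 u2 r0 r1 r2 : ℝ} (H : Srt u0 u1 u2 r0 r1 r2) :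
    Rep u0 u1 u2 1 (r1 / r0) (r2 / r0) := by
  obtain ⟨hT, e0, e1, e2, p0, p1, p2, n2, o12, o01, s02⟩ := H
  have hr : 0 < r0 := by linarith
  apply rep_of hT (κ := r0) hr
  · rw [e0]; ring
  · rw [e1]; field_simp
  · rw [e2]; field_simp

/-- The top level inequality on sorted points. -/
theorem top_sorted {u0 u1 u2 l : ℝ} (hT : InT u0 u1 u2) (h01 : u1 ≤ u0) (h12 : u2 ≤ u1) (hneg : u2 < 0)
    (hl0 : 0 ≤ l) (hl1 : l ≤ 1 / 2) :
    (sq3 u0 u1 u2) ^ 2 * rhsF (u0 / (-u2)) (-u2) l ≤ psiF u0 u1 u2 - sq3 u0 u1 u2 := by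
  have H := srt_of hT h01 h12 hneg
  obtain ⟨τ, a, h1, h2, h3, h4, R⟩ := center_rep H
  by_cases hτ : τ ≤ 1 / 8
  · exact top_of_rep R hneg (top_center h1 hτ h2 h3 hl0 hl1)
  · have hτ' : 1 / 8 < τ := not_le.1 hτ
    obtain ⟨_, e0, e1, e2, p0, p1, p2, n2, o12, o01, s02⟩ := H
    set r0 := rt (1 + u0)
    set r1 := rt (1 + u1)
    set r2 := rt (1 + u2)
    have hr : 0 < r0 := by linarith
    have hσ : 0 < r0 + r1 + r2 := by linarith
    have h7 : r0 + r1 + r2 < 8 * (r0 + r1 - 2 * r2) := by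
      have := mul_lt_mul_of_pos_right hτ' hσ
      rw [h4] at this
      linarith
    apply top_of_rep (far_rep ⟨hT, rfl, rfl, rfl, p0, p1, p2, n2, o12, o01, s02⟩) hneg
    apply top_far (div_nonneg (by linarith) hr.le) _ (div_nonneg n2 hr.le) _ hl0 hl1
    · exact div_le_div_of_nonneg_right o12 hr.le
    · have e : 7 * (1 + r1 / r0) = (7 * (r0 + r1)) / r0 := by field_simp
      rw [e, mul_div_assoc', div_le_div_iff_of_pos_right hr]
      linarith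
    · rw [div_le_one hr]; exact o01
    · rw [div_le_one hr]; linarith

/-- The upper bounds on sorted points close to the center. -/
theorem up_sorted {u0 u1 u2 : ℝ} (hT : InT u0 u1 u2) (h01 : u1 ≤ u0) (h12 : u2 ≤ u1) (hneg : u2 < 0)
    (ht : -u2 ≤ 1 / 2) :
    psiF u0 u1 u2 - sq3 u0 u1 u2
        ≤ (sq3 u0 u1 u2) ^ 2 * AbF (u0 / (-u2) - rv 281475312254976) (-u2 - rv 281475043819520) ∧
      WF u0 u1 u2 ≤ sq3 u0 u1 u2 * BbF (u0 / (-u2) - rv 281475312254976) (-u2 - rv 281475043819520) ∧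
      - WF u0 u1 u2 ≤ sq3 u0 u1 u2 * BbF (u0 / (-u2) - rv 281475312254976) (-u2 - rv 281475043819520) := by
  have H := srt_of hT h01 h12 hneg
  obtain ⟨τ, a, h1, h2, h3, h4, R⟩ := center_rep H
  obtain ⟨_, e0, e1, e2, p0, p1, p2, n2, o12, o01, s02⟩ := H
  set r0 := rt (1 + u0)
  set r1 := rt (1 + u1)
  set r2 := rt (1 + u2)
  obtain ⟨hs, h0', h1', h2'⟩ := hT
  have hσ : 0 < r0 + r1 + r2 := by linarith
  -- the radius is small
  have key : 14 * r0 ≤ 17 * r2 := by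
    by_contra hc
    have hc' : 17 * r2 < 14 * r0 := not_le.1 hc
    have := pow_lt_pow_left₀ hc' (by positivity) (by norm_num : (9 : ℕ) ≠ 0)
    have e1' : (17 * r2) ^ 9 = 118587876497 * r2 ^ 9 := by ring
    have e2' : (14 * r0) ^ 9 = 20661046784 * r0 ^ 9 := by ring
    rw [e1', e2', p0, p2] at this
    linarith
  have hτ : τ ≤ 1 / 8 := by
    by_contra hc
    have hτ' : 1 / 8 < τ := not_le.1 hc
    have := mul_lt_mul_of_pos_right hτ' hσ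
    rw [h4] at this
    linarith
  have hS := R.pos
  have e2'' : -u2 = (Sy (1 + τ * a) (1 + τ * (1 - a)) (1 - τ) - 3 * (1 - τ) ^ 9)
      / Sy (1 + τ * a) (1 + τ * (1 - a)) (1 - τ) := by
    rw [R.e2]; ring
  have hs' : (Sy (1 + τ * a) (1 + τ * (1 - a)) (1 - τ) - 3 * (1 - τ) ^ 9)
      / Sy (1 + τ * a) (1 + τ * (1 - a)) (1 - τ) ≤ 1 / 2 := by
    rw [← e2'']; exact ht
  obtain ⟨g1, g2, g3⟩ := up_center h1 hτ h2 h3 hs' hS
  exact up_of_rep (A := fun a t => AbF (a - rv 281475312254976) (t - rv 281475043819520))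
    (B := fun a t => BbF (a - rv 281475312254976) (t - rv 281475043819520)) R hneg g1 g2 g3

/-! ### The pointwise inequality -/

section pw

variable {d : ℕ} {lam : ℝ}

/-- The pointwise inequality on sorted points. -/
theorem pw_sorted (h0 : 0 < lam) (h1 : lam ≤ 1 / 2) (hdl : (d : ℝ) * lam ^ 2 ≤ 1) (hd : 1 ≤ d)
    {u0 u1 u2 : ℝ} (hT : InT u0 u1 u2) (h01 : u1 ≤ u0) (h12 : u2 ≤ u1) (hneg : u2 < 0) :
    ((d : ℝ) - 1) * (31788544 / 268435456) * (WF (lam * u0) (lam * u1) (lam * u2)) ^ 2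
        + (1 / 2048) * lam ^ 2 * (sq3 u0 u1 u2) ^ 2
      ≤ lam ^ 2 * psiF u0 u1 u2 - psiF (lam * u0) (lam * u1) (lam * u2) := by
  have hTw : InT (lam * u0) (lam * u1) (lam * u2) := InT_scale (by linarith) (by linarith) hT
  have hm2 : -1 ≤ u2 := hT.2.2.2
  have hw : -(lam * u2) ≤ 1 / 2 := by nlinarith
  obtain ⟨g1, g2, g3⟩ := up_sorted hTw (mul_le_mul_of_nonneg_left h01 h0.le)
    (mul_le_mul_of_nonneg_left h12 h0.le) (mul_neg_of_pos_of_neg h0 hneg) hw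
  have ea : lam * u0 / (-(lam * u2)) = u0 / (-u2) := by
    have : -(lam * u2) = lam * (-u2) := by ring
    rw [this, mul_div_mul_left _ _ h0.ne']
  have eX : sq3 (lam * u0) (lam * u1) (lam * u2) = lam ^ 2 * sq3 u0 u1 u2 := by
    unfold sq3; ring
  have et : -(lam * u2) - rv 281475043819520 = lam * (-u2) - rv 281475043819520 := by ring
  rw [ea, eX, et] at g1 g2 g3
  have ht := top_sorted (l := lam) hT h01 h12 hneg h0.le h1
  unfold rhsF at ht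
  rw [rv_C0, rv_E, rv_one] at ht
  set A := AbF (u0 / (-u2) - rv 281475312254976) (lam * (-u2) - rv 281475043819520)
  set B := BbF (u0 / (-u2) - rv 281475312254976) (lam * (-u2) - rv 281475043819520)
  set X := sq3 u0 u1 u2
  set W := WF (lam * u0) (lam * u1) (lam * u2)
  set Pw := psiF (lam * u0) (lam * u1) (lam * u2)
  set Pu := psiF u0 u1 u2
  have hX : 0 ≤ X := by
    show 0 ≤ sq3 u0 u1 u2
    unfold sq3
    nlinarith [mul_self_nonneg u0, mul_self_nonneg u1, mul_self_nonneg u2]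
  have hl2 : 0 < lam ^ 2 := by positivity
  have hW : W ^ 2 ≤ (lam ^ 2 * X) ^ 2 * B ^ 2 := by
    have e : (lam ^ 2 * X) ^ 2 * B ^ 2 = (lam ^ 2 * X * B) ^ 2 := by ring
    rw [e]
    exact sq_le_sq' (by linarith) g2
  have hd1 : (1 : ℝ) ≤ d := by exact_mod_cast hd
  -- the main estimate
  have h5 : ((d : ℝ) - 1) * lam ^ 2 ≤ 1 - lam ^ 2 := by linarith
  have h6 : 0 ≤ (d : ℝ) - 1 := by linarith
  have h7 : 0 ≤ (lam ^ 2 * X ^ 2 * B ^ 2) := by positivity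
  have h8 : ((d : ℝ) - 1) * W ^ 2 ≤ (1 - lam ^ 2) * (lam ^ 2 * X ^ 2 * B ^ 2) := by
    have h9 : ((d : ℝ) - 1) * W ^ 2 ≤ ((d : ℝ) - 1) * ((lam ^ 2 * X) ^ 2 * B ^ 2) :=
      mul_le_mul_of_nonneg_left hW h6
    have h10 : ((d : ℝ) - 1) * ((lam ^ 2 * X) ^ 2 * B ^ 2)
        = (((d : ℝ) - 1) * lam ^ 2) * (lam ^ 2 * X ^ 2 * B ^ 2) := by ring
    have h11 := mul_le_mul_of_nonneg_right h5 h7
    linarith
  have h12' := mul_le_mul_of_nonneg_left ht hl2.le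
  nlinarith

lemma Gq_swap01 (u0 u1 u2 : ℝ) : Gq u1 u0 u2 = Gq u0 u1 u2 := by
  unfold Gq avg6; ring

lemma Gq_swap12 (u0 u1 u2 : ℝ) : Gq u0 u2 u1 = Gq u0 u1 u2 := by
  unfold Gq avg6; ring

lemma Gp_swap01 (u0 u1 u2 : ℝ) : Gp u1 u0 u2 = Gp u0 u1 u2 := by
  unfold Gp Gk mon; ring

lemma Gp_swap12 (u0 u1 u2 : ℝ) : Gp u0 u2 u1 = Gp u0 u1 u2 := by
  unfold Gp Gk mon; ring

lemma psiF_swap01 (u0 u1 u2 : ℝ) : psiF u1 u0 u2 = psiF u0 u1 u2 := by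
  unfold psiF; rw [Gq_swap01, Gp_swap01]

lemma psiF_swap12 (u0 u1 u2 : ℝ) : psiF u0 u2 u1 = psiF u0 u1 u2 := by
  unfold psiF; rw [Gq_swap12, Gp_swap12]

lemma WF_swap01 (u0 u1 u2 : ℝ) : WF u1 u0 u2 = WF u0 u1 u2 := by
  unfold WF; rw [Gq_swap01, Gp_swap01]

lemma WF_swap12 (u0 u1 u2 : ℝ) : WF u0 u2 u1 = WF u0 u1 u2 := by
  unfold WF; rw [Gq_swap12, Gp_swap12]

lemma sq3_swap01 (u0 u1 u2 : ℝ) : sq3 u1 u0 u2 = sq3 u0 u1 u2 := by
  unfold sq3; ring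

lemma sq3_swap12 (u0 u1 u2 : ℝ) : sq3 u0 u2 u1 = sq3 u0 u1 u2 := by
  unfold sq3; ring

/-- A symmetric statement holds on the triangle as soon as it holds at sorted points. -/
lemma sym_reduce {P : ℝ → ℝ → ℝ → Prop} (s01 : ∀ a b c, P a b c → P b a c) (s12 : ∀ a b c, P a b c → P a c b)
    (hP : ∀ a b c, InT a b c → b ≤ a → c ≤ b → P a b c) :
    ∀ a b c, InT a b c → P a b c := by
  intro a b c h
  obtain ⟨hs, h0, h1, h2⟩ := h
  have T : ∀ x y z, x + y + z = 0 → -1 ≤ x → -1 ≤ y → -1 ≤ z → InT x y z := fun x y z h a b c => ⟨h, a, b, c⟩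
  rcases le_total b a with hab | hab <;> rcases le_total c b with hbc | hbc <;> rcases le_total c a with hac | hac
  · exact hP a b c (T _ _ _ hs h0 h1 h2) hab hbc
  · exact hP a b c (T _ _ _ hs h0 h1 h2) hab hbc
  · exact s12 _ _ _ (hP a c b (T _ _ _ (by linarith) h0 h2 h1) hac hbc)
  · exact s12 _ _ _ (s01 _ _ _ (hP c a b (T _ _ _ (by linarith) h2 h0 h1) hac hab))
  · exact s01 _ _ _ (hP b a c (T _ _ _ (by linarith) h1 h0 h2) hab hac)
  · exact s01 _ _ _ (s12 _ _ _ (hP b c a (T _ _ _ (by linarith) h1 h2 h0) hbc hac))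
  · exact s01 _ _ _ (s12 _ _ _ (s01 _ _ _ (hP c b a (T _ _ _ (by linarith) h2 h1 h0) hbc hab)))
  · exact s01 _ _ _ (s12 _ _ _ (s01 _ _ _ (hP c b a (T _ _ _ (by linarith) h2 h1 h0) hbc hab)))

lemma zero_of_sorted {a b c : ℝ} (h : InT a b c) (h1 : b ≤ a) (h2 : c ≤ b) (h3 : ¬ c < 0) :
    a = 0 ∧ b = 0 ∧ c = 0 := by
  have h3' : 0 ≤ c := not_lt.1 h3
  have hs := h.1
  refine ⟨by linarith, by linarith, by linarith⟩

lemma values_zero : psiF 0 0 0 = 0 ∧ WF 0 0 0 = 0 ∧ sq3 0 0 0 = 0 := by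
  have e1 : rt (1 + 0) = 1 := by rw [add_zero, rt_one]
  have eq : Gq 0 0 0 = 1 := by
    unfold Gq avg6 Gk mon
    rw [e1]
    norm_num
  have ep : Gp 0 0 0 = 1 := by
    unfold Gp Gk mon
    rw [e1]
    norm_num
  refine ⟨?_, ?_, ?_⟩
  · unfold psiF; rw [eq, ep]; norm_num
  · unfold WF; rw [eq, ep]; norm_num
  · unfold sq3; norm_num

/-- The potential is nonnegative on the triangle. -/
theorem psiF_nonneg : ∀ u0 u1 u2, InT u0 u1 u2 → 0 ≤ psiF u0 u1 u2 := by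
  apply sym_reduce
  · intro a b c h; rwa [psiF_swap01]
  · intro a b c h; rwa [psiF_swap12]
  · intro a b c h h1 h2
    by_cases hneg : c < 0
    · have ht := top_sorted (l := 0) h h1 h2 hneg le_rfl (by norm_num)
      unfold rhsF at ht
      rw [rv_C0, rv_E, rv_one] at ht
      have hX : 0 ≤ sq3 a b c := by
        unfold sq3
        nlinarith [mul_self_nonneg a, mul_self_nonneg b, mul_self_nonneg c]
      have h5 : 0 ≤ (sq3 a b c) ^ 2 * ((0 * 0) * AbF (a / (-c) - rv 281475312254976) (0 * (-c) - rv 281475043819520)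
          + ((31788544 / 268435456) * (1 - 0 * 0))
            * (BbF (a / (-c) - rv 281475312254976) (0 * (-c) - rv 281475043819520)
              * BbF (a / (-c) - rv 281475312254976) (0 * (-c) - rv 281475043819520)) + 1 / 2048) := by
        apply mul_nonneg (sq_nonneg _)
        have e := mul_self_nonneg (BbF (a / (-c) - rv 281475312254976) (0 * (-c) - rv 281475043819520))
        have e' := mul_nonneg (by norm_num : (0 : ℝ) ≤ 31788544 / 268435456) e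
        linarith
      linarith
    · obtain ⟨e0, e1, e2⟩ := zero_of_sorted h h1 h2 hneg
      subst e0 e1 e2
      rw [values_zero.1]

/-- The pointwise inequality on the triangle. -/
theorem pw_all (h0 : 0 < lam) (h1 : lam ≤ 1 / 2) (hdl : (d : ℝ) * lam ^ 2 ≤ 1) (hd : 1 ≤ d) :
    ∀ u0 u1 u2, InT u0 u1 u2 →
      ((d : ℝ) - 1) * (31788544 / 268435456) * (WF (lam * u0) (lam * u1) (lam * u2)) ^ 2
          + (1 / 2048) * lam ^ 2 * (sq3 u0 u1 u2) ^ 2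
        ≤ lam ^ 2 * psiF u0 u1 u2 - psiF (lam * u0) (lam * u1) (lam * u2) := by
  apply sym_reduce
  · intro a b c h
    rw [psiF_swap01 a b c, psiF_swap01 (lam * a) (lam * b) (lam * c), WF_swap01 (lam * a) (lam * b) (lam * c),
      sq3_swap01 a b c]
    exact h
  · intro a b c h
    rw [psiF_swap12 a b c, psiF_swap12 (lam * a) (lam * b) (lam * c), WF_swap12 (lam * a) (lam * b) (lam * c),
      sq3_swap12 a b c]
    exact h
  · intro a b c hT h2 h3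
    by_cases hneg : c < 0
    · exact pw_sorted h0 h1 hdl hd hT h2 h3 hneg
    · obtain ⟨e0, e1, e2⟩ := zero_of_sorted hT h2 h3 hneg
      subst e0 e1 e2
      have v := values_zero
      simp only [mul_zero]
      rw [v.1, v.2.1, v.2.2]
      norm_num

/-- Nonreconstruction for the three-state Potts channel on the `d`-ary tree. -/
theorem nonreconstruction_star (hd : 1 ≤ d) (h0 : 0 ≤ lam) (h1 : lam ≤ 1 / 2) (hdl : (d : ℝ) * lam ^ 2 ≤ 1) :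
    Tendsto (fun n => reconstructionGap 3 d lam n) atTop (𝓝 0) := by
  rcases h0.eq_or_lt with e | h0'
  · rw [← e]; exact gap_zero_lam d
  · apply gap_of_pw (by linarith) (by linarith) h0'.ne' hdl hd (ε := 1 / 2048) (c0 := 31788544 / 268435456)
      (by norm_num) (by norm_num) psiF_nonneg (pw_all h0' h1 hdl hd)

end pw

end ST

end Vale.Agent.Lib.P154
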