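import Vale.Agent.Lib.P154.Step2

/-!
Tensorization of the product test functions along the recursion of the tree.
-/

namespace Vale.Agent.Lib.P154

namespace ST

open scoped BigOperators
open Filter Topology

/-- The ninth root. -/
noncomputable def rt (x : ℝ) : ℝ := x ^ ((1 : ℝ) / 9)

lemma rt_nonneg {x : ℝ} (hx : 0 ≤ x) : 0 ≤ rt x := Real.rpow_nonneg hx _

lemma rt_pow {x : ℝ} (hx : 0 ≤ x) : rt x ^ 9 = x := by
  unfold rt
  rw [← Real.rpow_natCast, ← Real.rpow_mul hx]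
  norm_num

lemma rt_mul {x y : ℝ} (hx : 0 ≤ x) (hy : 0 ≤ y) : rt (x * y) = rt x * rt y :=
  Real.mul_rpow hx hy

lemma rt_one : rt 1 = 1 := Real.one_rpow _

lemma rt_prod {ι : Type} (s : Finset ι) (f : ι → ℝ) (hf : ∀ c ∈ s, 0 ≤ f c) :
    rt (∏ c ∈ s, f c) = ∏ c ∈ s, rt (f c) :=
  (Real.finset_prod_rpow s f hf _).symm

/-- A monomial. -/
def mon (k0 k1 k2 : ℕ) (y0 y1 y2 : ℝ) : ℝ := y0 ^ k0 * y1 ^ k1 * y2 ^ k2

lemma mon_scale (k0 k1 k2 : ℕ) (c y0 y1 y2 : ℝ) :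
    mon k0 k1 k2 (c * y0) (c * y1) (c * y2) = c ^ (k0 + k1 + k2) * mon k0 k1 k2 y0 y1 y2 := by
  unfold mon
  simp only [mul_pow, pow_add]
  ring

lemma mon_prod {ι : Type} (s : Finset ι) (k0 k1 k2 : ℕ) (a b e : ι → ℝ) :
    mon k0 k1 k2 (∏ c ∈ s, a c) (∏ c ∈ s, b c) (∏ c ∈ s, e c)
      = ∏ c ∈ s, mon k0 k1 k2 (a c) (b c) (e c) := by
  unfold mon
  simp only [Finset.prod_mul_distrib, Finset.prod_pow]

/-- The product test function with exponents `k / 9`. -/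
noncomputable def Gk (k0 k1 k2 : ℕ) (u0 u1 u2 : ℝ) : ℝ :=
  mon k0 k1 k2 (rt (1 + u0)) (rt (1 + u1)) (rt (1 + u2))

section tens

variable {d : ℕ} {lam : ℝ}

lemma msg_le (h1 : -(1 / 2) ≤ lam) (h2 : lam ≤ 1) (n : ℕ) (s : LeafConfig 3 d n) (i : Fin 3) :
    msg lam n s i ≤ 2 := by
  have hs := msg_sum lam n s
  have h0 := msg_ge h1 h2 n s 0
  have h1' := msg_ge h1 h2 n s 1
  have h2' := msg_ge h1 h2 n s 2
  fin_cases i <;> simp <;> linarith

lemma one_add_lam_msg (h1 : -(1 / 2) ≤ lam) (h2 : lam ≤ 1) (n : ℕ) (s : LeafConfig 3 d n)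
    (i : Fin 3) : 0 ≤ 1 + lam * msg lam n s i := by
  have h3 := msg_ge h1 h2 n s i
  have h4 := msg_le h1 h2 n s i
  by_cases h0 : 0 ≤ lam
  · nlinarith
  · have h0' : lam < 0 := not_le.1 h0
    nlinarith

lemma lik_child' (h1 : -(1 / 2) ≤ lam) (h2 : lam ≤ 1) (n : ℕ) (i : Fin 3) (x : LeafConfig 3 d n) :
    ∑ j : Fin 3, pottsChannel 3 lam i j * leafLik 3 d lam n j x
      = Zf lam n x * (1 + lam * msg lam n x i) := by
  rw [channel3_sum]
  have e : (1 / 3) * ∑ j : Fin 3, leafLik 3 d lam n j x = Zf lam n x := rfl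
  rw [e, lik_eq h1 h2 n x i]
  ring

/-- One term: the monomial in the roots of the likelihoods. -/
lemma term_lik (h1 : -(1 / 2) ≤ lam) (h2 : lam ≤ 1) {k0 k1 k2 : ℕ} (hk : k0 + k1 + k2 = 9) (n : ℕ)
    (s : LeafConfig 3 d n) :
    Zf lam n s * Gk k0 k1 k2 (msg lam n s 0) (msg lam n s 1) (msg lam n s 2)
      = mon k0 k1 k2 (rt (leafLik 3 d lam n 0 s)) (rt (leafLik 3 d lam n 1 s))
          (rt (leafLik 3 d lam n 2 s)) := by
  have hZ := Z_nonneg h1 h2 n s
  have e : ∀ i : Fin 3, rt (leafLik 3 d lam n i s) = rt (Zf lam n s) * rt (1 + msg lam n s i) := by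
    intro i
    rw [lik_eq h1 h2 n s i, rt_mul hZ (by linarith [msg_ge h1 h2 n s i])]
  rw [e 0, e 1, e 2, mon_scale, hk, rt_pow hZ]
  rfl

/-- One child: the monomial in the roots of the likelihoods of the child. -/
lemma term_child (h1 : -(1 / 2) ≤ lam) (h2 : lam ≤ 1) {k0 k1 k2 : ℕ} (hk : k0 + k1 + k2 = 9) (n : ℕ)
    (x : LeafConfig 3 d n) :
    mon k0 k1 k2 (rt (∑ j : Fin 3, pottsChannel 3 lam 0 j * leafLik 3 d lam n j x))
        (rt (∑ j : Fin 3, pottsChannel 3 lam 1 j * leafLik 3 d lam n j x))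
        (rt (∑ j : Fin 3, pottsChannel 3 lam 2 j * leafLik 3 d lam n j x))
      = Zf lam n x * Gk k0 k1 k2 (lam * msg lam n x 0) (lam * msg lam n x 1) (lam * msg lam n x 2) := by
  have hZ := Z_nonneg h1 h2 n x
  have e : ∀ i : Fin 3, rt (∑ j : Fin 3, pottsChannel 3 lam i j * leafLik 3 d lam n j x)
      = rt (Zf lam n x) * rt (1 + lam * msg lam n x i) := by
    intro i
    rw [lik_child' h1 h2, rt_mul hZ (one_add_lam_msg h1 h2 n x i)]
  rw [e 0, e 1, e 2, mon_scale, hk, rt_pow hZ]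
  rfl

/-- The tensorization identity: a product test function of the message at depth `n + 1` has as
mean the `d`-th power of the mean of the same function of the scaled message at depth `n`. -/
theorem En_Gk_succ (h1 : -(1 / 2) ≤ lam) (h2 : lam ≤ 1) {k0 k1 k2 : ℕ} (hk : k0 + k1 + k2 = 9)
    (n : ℕ) :
    En d lam (n + 1) (Gk k0 k1 k2) =
      (En d lam n (fun u0 u1 u2 => Gk k0 k1 k2 (lam * u0) (lam * u1) (lam * u2))) ^ d := by
  unfold En
  simp_rw [term_lik h1 h2 hk]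
  rw [sum_succ]
  have hnn : ∀ (i : Fin 3) (x : LeafConfig 3 d n),
      0 ≤ ∑ j : Fin 3, pottsChannel 3 lam i j * leafLik 3 d lam n j x := by
    intro i x
    apply Finset.sum_nonneg
    intro j _
    exact mul_nonneg (channel3_nonneg h1 h2 i j) (lik_nonneg h1 h2 n j x)
  have hterm : ∀ s : Fin d → LeafConfig 3 d n,
      mon k0 k1 k2 (rt (leafLik 3 d lam (n + 1) 0 s)) (rt (leafLik 3 d lam (n + 1) 1 s))
          (rt (leafLik 3 d lam (n + 1) 2 s))
        = ∏ c : Fin d, (Zf lam n (s c) *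
            Gk k0 k1 k2 (lam * msg lam n (s c) 0) (lam * msg lam n (s c) 1) (lam * msg lam n (s c) 2)) := by
    intro s
    have e : ∀ i : Fin 3, rt (leafLik 3 d lam (n + 1) i s)
        = ∏ c : Fin d, rt (∑ j : Fin 3, pottsChannel 3 lam i j * leafLik 3 d lam n j (s c)) := by
      intro i
      exact rt_prod _ _ (fun c _ => hnn i (s c))
    rw [e 0, e 1, e 2, mon_prod]
    exact Finset.prod_congr rfl fun c _ => term_child h1 h2 hk n (s c)
  simp_rw [hterm]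
  have := (Finset.prod_univ_sum (fun _ : Fin d => (Finset.univ : Finset (LeafConfig 3 d n)))
      (fun _ x => Zf lam n x * Gk k0 k1 k2 (lam * msg lam n x 0) (lam * msg lam n x 1) (lam * msg lam n x 2))).symm
  rw [Fintype.piFinset_univ] at this
  rw [this, Finset.prod_const, Finset.card_univ, Fintype.card_fin]

/-- The average of a function over the six permutations of its arguments. -/
noncomputable def avg6 (h : ℝ → ℝ → ℝ → ℝ) (u0 u1 u2 : ℝ) : ℝ :=
  (1 / 6) * (h u0 u1 u2 + h u0 u2 u1 + h u1 u0 u2 + h u1 u2 u0 + h u2 u0 u1 + h u2 u1 u0)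

/-- The mean of a function of the message does not change by averaging over permutations. -/
lemma En_avg6 (n : ℕ) (h : ℝ → ℝ → ℝ → ℝ) : En d lam n (avg6 h) = En d lam n h := by
  have H := fun g : Equiv.Perm (Fin 3) => sum_perm (d := d) g lam n h
  have H1 := H (Equiv.swap 1 2)
  have H2 := H (Equiv.swap 0 1)
  have H3 := H (Equiv.swap 0 1 * Equiv.swap 1 2 : Equiv.Perm (Fin 3))
  have H4 := H (Equiv.swap 1 2 * Equiv.swap 0 1 : Equiv.Perm (Fin 3))
  have H5 := H (Equiv.swap 0 2)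
  have v10 : (Equiv.swap (1 : Fin 3) 2) 0 = 0 := by decide
  have v11 : (Equiv.swap (1 : Fin 3) 2) 1 = 2 := by decide
  have v12 : (Equiv.swap (1 : Fin 3) 2) 2 = 1 := by decide
  have v20 : (Equiv.swap (0 : Fin 3) 1) 0 = 1 := by decide
  have v21 : (Equiv.swap (0 : Fin 3) 1) 1 = 0 := by decide
  have v22 : (Equiv.swap (0 : Fin 3) 1) 2 = 2 := by decide
  have v30 : (Equiv.swap 0 1 * Equiv.swap 1 2 : Equiv.Perm (Fin 3)) 0 = 1 := by decide
  have v31 : (Equiv.swap 0 1 * Equiv.swap 1 2 : Equiv.Perm (Fin 3)) 1 = 2 := by decide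
  have v32 : (Equiv.swap 0 1 * Equiv.swap 1 2 : Equiv.Perm (Fin 3)) 2 = 0 := by decide
  have v40 : (Equiv.swap 1 2 * Equiv.swap 0 1 : Equiv.Perm (Fin 3)) 0 = 2 := by decide
  have v41 : (Equiv.swap 1 2 * Equiv.swap 0 1 : Equiv.Perm (Fin 3)) 1 = 0 := by decide
  have v42 : (Equiv.swap 1 2 * Equiv.swap 0 1 : Equiv.Perm (Fin 3)) 2 = 1 := by decide
  have v50 : (Equiv.swap (0 : Fin 3) 2) 0 = 2 := by decide
  have v51 : (Equiv.swap (0 : Fin 3) 2) 1 = 1 := by decide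
  have v52 : (Equiv.swap (0 : Fin 3) 2) 2 = 0 := by decide
  rw [v10, v11, v12] at H1
  rw [v20, v21, v22] at H2
  rw [v30, v31, v32] at H3
  rw [v40, v41, v42] at H4
  rw [v50, v51, v52] at H5
  unfold En avg6
  simp only [mul_add, Finset.sum_add_distrib]
  have comm : ∀ (y : LeafConfig 3 d n) (m : ℝ), Zf lam n y * (1 / 6 * m) = 1 / 6 * (Zf lam n y * m) := by
    intro y m; ring
  simp only [comm, ← Finset.mul_sum, mul_add, Finset.sum_add_distrib]
  rw [H1, H2, H3, H4, H5]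
  ring

end tens

/-- The symmetric test function with exponents `(5, 3, 1) / 9`. -/
noncomputable def Gq (u0 u1 u2 : ℝ) : ℝ := avg6 (Gk 5 3 1) u0 u1 u2

/-- The symmetric test function with exponents `(3, 3, 3) / 9`. -/
noncomputable def Gp (u0 u1 u2 : ℝ) : ℝ := Gk 3 3 3 u0 u1 u2

section tens2

variable {d : ℕ} {lam : ℝ}

theorem En_Gq_succ (h1 : -(1 / 2) ≤ lam) (h2 : lam ≤ 1) (n : ℕ) :
    En d lam (n + 1) Gq = (En d lam n (fun u0 u1 u2 => Gq (lam * u0) (lam * u1) (lam * u2))) ^ d := by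
  have e1 : En d lam (n + 1) Gq = En d lam (n + 1) (Gk 5 3 1) := En_avg6 _ _
  have e2 : En d lam n (fun u0 u1 u2 => Gq (lam * u0) (lam * u1) (lam * u2))
      = En d lam n (fun u0 u1 u2 => Gk 5 3 1 (lam * u0) (lam * u1) (lam * u2)) :=
    En_avg6 n (fun u0 u1 u2 => Gk 5 3 1 (lam * u0) (lam * u1) (lam * u2))
  rw [e1, e2]
  exact En_Gk_succ h1 h2 (by norm_num) n

theorem En_Gp_succ (h1 : -(1 / 2) ≤ lam) (h2 : lam ≤ 1) (n : ℕ) :
    En d lam (n + 1) Gp = (En d lam n (fun u0 u1 u2 => Gp (lam * u0) (lam * u1) (lam * u2))) ^ d :=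
  En_Gk_succ h1 h2 (by norm_num) n

end tens2

end ST

end Vale.Agent.Lib.P154
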